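import Vale.Agent.P224.R2.H178.WO

/-!
The numbers of the law in odd dimension `101 ≤ m ≤ 199`.
-/

namespace Vale.Agent.P224.R2.H977

open Vale.Agent.P224.R2.H178

/-- the rows for odd `101 ≤ m ≤ 199` -/
def tabB : List ORow :=
  [⟨101, 205016 / 100000, 1305031 / 100000⟩,
   ⟨103, 207818 / 100000, 1338596 / 100000⟩,
   ⟨105, 210596 / 100000, 1372299 / 100000⟩,
   ⟨107, 213349 / 100000, 1406136 / 100000⟩,
   ⟨109, 216079 / 100000, 1440104 / 100000⟩,
   ⟨111, 218786 / 100000, 1474199 / 100000⟩,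
   ⟨113, 221471 / 100000, 1508417 / 100000⟩,
   ⟨115, 224133 / 100000, 1542755 / 100000⟩,
   ⟨117, 226775 / 100000, 1577210 / 100000⟩,
   ⟨119, 229395 / 100000, 1611780 / 100000⟩,
   ⟨121, 231996 / 100000, 1646460 / 100000⟩,
   ⟨123, 234576 / 100000, 1681249 / 100000⟩,
   ⟨125, 237137 / 100000, 1716144 / 100000⟩,
   ⟨127, 239679 / 100000, 1751143 / 100000⟩,
   ⟨129, 242203 / 100000, 1786242 / 100000⟩,
   ⟨131, 244708 / 100000, 1821439 / 100000⟩,
   ⟨133, 247196 / 100000, 1856733 / 100000⟩,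
   ⟨135, 249666 / 100000, 1892120 / 100000⟩,
   ⟨137, 252120 / 100000, 1927600 / 100000⟩,
   ⟨139, 254556 / 100000, 1963169 / 100000⟩,
   ⟨141, 256977 / 100000, 1998827 / 100000⟩,
   ⟨143, 259381 / 100000, 2034570 / 100000⟩,
   ⟨145, 261770 / 100000, 2070398 / 100000⟩,
   ⟨147, 264143 / 100000, 2106308 / 100000⟩,
   ⟨149, 266501 / 100000, 2142299 / 100000⟩,
   ⟨151, 268845 / 100000, 2178369 / 100000⟩,
   ⟨153, 271174 / 100000, 2214517 / 100000⟩,
   ⟨155, 273488 / 100000, 2250740 / 100000⟩,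
   ⟨157, 275789 / 100000, 2287038 / 100000⟩,
   ⟨159, 278076 / 100000, 2323410 / 100000⟩,
   ⟨161, 280349 / 100000, 2359853 / 100000⟩,
   ⟨163, 282609 / 100000, 2396366 / 100000⟩,
   ⟨165, 284857 / 100000, 2432948 / 100000⟩,
   ⟨167, 287091 / 100000, 2469598 / 100000⟩,
   ⟨169, 289313 / 100000, 2506314 / 100000⟩,
   ⟨171, 291522 / 100000, 2543096 / 100000⟩,
   ⟨173, 293719 / 100000, 2579942 / 100000⟩,
   ⟨175, 295904 / 100000, 2616851 / 100000⟩,
   ⟨177, 298078 / 100000, 2653822 / 100000⟩,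
   ⟨179, 300240 / 100000, 2690853 / 100000⟩,
   ⟨181, 302390 / 100000, 2727945 / 100000⟩,
   ⟨183, 304529 / 100000, 2765095 / 100000⟩,
   ⟨185, 306657 / 100000, 2802303 / 100000⟩,
   ⟨187, 308775 / 100000, 2839568 / 100000⟩,
   ⟨189, 310881 / 100000, 2876889 / 100000⟩,
   ⟨191, 312977 / 100000, 2914265 / 100000⟩,
   ⟨193, 315063 / 100000, 2951695 / 100000⟩,
   ⟨195, 317138 / 100000, 2989179 / 100000⟩,
   ⟨197, 319203 / 100000, 3026714 / 100000⟩,
   ⟨199, 321259 / 100000, 3064302 / 100000⟩]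

theorem tabB_ok : tabB.all (orowOK 17 17 17 17 17 (11 / 2) (-22) 22) = true := by
  decide +kernel

end Vale.Agent.P224.R2.H977
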