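import Vale.Agent.P224.R2.H178.WO

/-!
The numbers of the law in odd dimension `201 ≤ m ≤ 299`.
-/

namespace Vale.Agent.P224.R2.H977

open Vale.Agent.P224.R2.H178

/-- the rows for odd `201 ≤ m ≤ 299` -/
def tabC : List ORow :=
  [⟨201, 323304 / 100000, 3101940 / 100000⟩,
   ⟨203, 325340 / 100000, 3139629 / 100000⟩,
   ⟨205, 327366 / 100000, 3177366 / 100000⟩,
   ⟨207, 329383 / 100000, 3215153 / 100000⟩,
   ⟨209, 331391 / 100000, 3252987 / 100000⟩,
   ⟨211, 333389 / 100000, 3290868 / 100000⟩,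
   ⟨213, 335378 / 100000, 3328796 / 100000⟩,
   ⟨215, 337359 / 100000, 3366770 / 100000⟩,
   ⟨217, 339331 / 100000, 3404789 / 100000⟩,
   ⟨219, 341294 / 100000, 3442852 / 100000⟩,
   ⟨221, 343248 / 100000, 3480959 / 100000⟩,
   ⟨223, 345194 / 100000, 3519110 / 100000⟩,
   ⟨225, 347132 / 100000, 3557303 / 100000⟩,
   ⟨227, 349062 / 100000, 3595538 / 100000⟩,
   ⟨229, 350983 / 100000, 3633815 / 100000⟩,
   ⟨231, 352896 / 100000, 3672133 / 100000⟩,
   ⟨233, 354802 / 100000, 3710491 / 100000⟩,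
   ⟨235, 356699 / 100000, 3748889 / 100000⟩,
   ⟨237, 358589 / 100000, 3787327 / 100000⟩,
   ⟨239, 360472 / 100000, 3825803 / 100000⟩,
   ⟨241, 362346 / 100000, 3864318 / 100000⟩,
   ⟨243, 364213 / 100000, 3902871 / 100000⟩,
   ⟨245, 366073 / 100000, 3941461 / 100000⟩,
   ⟨247, 367926 / 100000, 3980088 / 100000⟩,
   ⟨249, 369771 / 100000, 4018751 / 100000⟩,
   ⟨251, 371610 / 100000, 4057450 / 100000⟩,
   ⟨253, 373441 / 100000, 4096186 / 100000⟩,
   ⟨255, 375265 / 100000, 4134956 / 100000⟩,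
   ⟨257, 377083 / 100000, 4173761 / 100000⟩,
   ⟨259, 378893 / 100000, 4212600 / 100000⟩,
   ⟨261, 380697 / 100000, 4251473 / 100000⟩,
   ⟨263, 382494 / 100000, 4290380 / 100000⟩,
   ⟨265, 384285 / 100000, 4329319 / 100000⟩,
   ⟨267, 386069 / 100000, 4368292 / 100000⟩,
   ⟨269, 387847 / 100000, 4407297 / 100000⟩,
   ⟨271, 389618 / 100000, 4446334 / 100000⟩,
   ⟨273, 391384 / 100000, 4485402 / 100000⟩,
   ⟨275, 393142 / 100000, 4524502 / 100000⟩,
   ⟨277, 394895 / 100000, 4563632 / 100000⟩,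
   ⟨279, 396642 / 100000, 4602793 / 100000⟩,
   ⟨281, 398382 / 100000, 4641985 / 100000⟩,
   ⟨283, 400117 / 100000, 4681206 / 100000⟩,
   ⟨285, 401846 / 100000, 4720457 / 100000⟩,
   ⟨287, 403568 / 100000, 4759737 / 100000⟩,
   ⟨289, 405286 / 100000, 4799046 / 100000⟩,
   ⟨291, 406997 / 100000, 4838383 / 100000⟩,
   ⟨293, 408702 / 100000, 4877749 / 100000⟩,
   ⟨295, 410402 / 100000, 4917143 / 100000⟩,
   ⟨297, 412097 / 100000, 4956565 / 100000⟩,
   ⟨299, 413786 / 100000, 4996014 / 100000⟩]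

theorem tabC_ok : tabC.all (orowOK 17 17 17 17 17 (11 / 2) (-22) 22) = true := by
  decide +kernel

end Vale.Agent.P224.R2.H977
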