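import Vale.Agent.P224.R2.H178.WO

/-!
The numbers of the law in odd dimension `301 ≤ m ≤ 399`.
-/

namespace Vale.Agent.P224.R2.H977

open Vale.Agent.P224.R2.H178

/-- the rows for odd `301 ≤ m ≤ 399` -/
def tabD : List ORow :=
  [⟨301, 415469 / 100000, 5035491 / 100000⟩,
   ⟨303, 417147 / 100000, 5074994 / 100000⟩,
   ⟨305, 418820 / 100000, 5114524 / 100000⟩,
   ⟨307, 420487 / 100000, 5154080 / 100000⟩,
   ⟨309, 422149 / 100000, 5193662 / 100000⟩,
   ⟨311, 423806 / 100000, 5233270 / 100000⟩,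
   ⟨313, 425458 / 100000, 5272904 / 100000⟩,
   ⟨315, 427105 / 100000, 5312563 / 100000⟩,
   ⟨317, 428746 / 100000, 5352247 / 100000⟩,
   ⟨319, 430383 / 100000, 5391955 / 100000⟩,
   ⟨321, 432015 / 100000, 5431689 / 100000⟩,
   ⟨323, 433641 / 100000, 5471446 / 100000⟩,
   ⟨325, 435263 / 100000, 5511228 / 100000⟩,
   ⟨327, 436880 / 100000, 5551034 / 100000⟩,
   ⟨329, 438492 / 100000, 5590863 / 100000⟩,
   ⟨331, 440100 / 100000, 5630716 / 100000⟩,
   ⟨333, 441702 / 100000, 5670592 / 100000⟩,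
   ⟨335, 443300 / 100000, 5710491 / 100000⟩,
   ⟨337, 444894 / 100000, 5750413 / 100000⟩,
   ⟨339, 446482 / 100000, 5790357 / 100000⟩,
   ⟨341, 448067 / 100000, 5830324 / 100000⟩,
   ⟨343, 449646 / 100000, 5870313 / 100000⟩,
   ⟨345, 451222 / 100000, 5910324 / 100000⟩,
   ⟨347, 452793 / 100000, 5950356 / 100000⟩,
   ⟨349, 454359 / 100000, 5990411 / 100000⟩,
   ⟨351, 455921 / 100000, 6030486 / 100000⟩,
   ⟨353, 457479 / 100000, 6070583 / 100000⟩,
   ⟨355, 459032 / 100000, 6110701 / 100000⟩,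
   ⟨357, 460581 / 100000, 6150840 / 100000⟩,
   ⟨359, 462126 / 100000, 6190999 / 100000⟩,
   ⟨361, 463667 / 100000, 6231179 / 100000⟩,
   ⟨363, 465204 / 100000, 6271379 / 100000⟩,
   ⟨365, 466736 / 100000, 6311599 / 100000⟩,
   ⟨367, 468265 / 100000, 6351839 / 100000⟩,
   ⟨369, 469789 / 100000, 6392099 / 100000⟩,
   ⟨371, 471310 / 100000, 6432379 / 100000⟩,
   ⟨373, 472826 / 100000, 6472678 / 100000⟩,
   ⟨375, 474338 / 100000, 6512996 / 100000⟩,
   ⟨377, 475847 / 100000, 6553334 / 100000⟩,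
   ⟨379, 477351 / 100000, 6593690 / 100000⟩,
   ⟨381, 478852 / 100000, 6634065 / 100000⟩,
   ⟨383, 480349 / 100000, 6674459 / 100000⟩,
   ⟨385, 481842 / 100000, 6714872 / 100000⟩,
   ⟨387, 483331 / 100000, 6755303 / 100000⟩,
   ⟨389, 484817 / 100000, 6795752 / 100000⟩,
   ⟨391, 486299 / 100000, 6836219 / 100000⟩,
   ⟨393, 487777 / 100000, 6876704 / 100000⟩,
   ⟨395, 489251 / 100000, 6917207 / 100000⟩,
   ⟨397, 490722 / 100000, 6957728 / 100000⟩,
   ⟨399, 492189 / 100000, 6998266 / 100000⟩]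

theorem tabD_ok : tabD.all (orowOK 17 17 17 17 17 (11 / 2) (-22) 22) = true := by
  decide +kernel

end Vale.Agent.P224.R2.H977
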