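import Vale.Agent.P224.R2.H178.WO

/-!
The numbers of the law in odd dimension `37 ≤ m ≤ 99`.
-/

namespace Vale.Agent.P224.R2.H977

open Vale.Agent.P224.R2.H178

/-- the rows for odd `37 ≤ m ≤ 99` -/
def tabA : List ORow :=
  [⟨37, 95138 / 100000, 345049 / 100000⟩,
   ⟨39, 99535 / 100000, 369651 / 100000⟩,
   ⟨41, 103825 / 100000, 394842 / 100000⟩,
   ⟨43, 108018 / 100000, 420571 / 100000⟩,
   ⟨45, 112121 / 100000, 446788 / 100000⟩,
   ⟨47, 116141 / 100000, 473464 / 100000⟩,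
   ⟨49, 120082 / 100000, 500572 / 100000⟩,
   ⟨51, 123951 / 100000, 528086 / 100000⟩,
   ⟨53, 127752 / 100000, 555985 / 100000⟩,
   ⟨55, 131489 / 100000, 584249 / 100000⟩,
   ⟨57, 135165 / 100000, 612858 / 100000⟩,
   ⟨59, 138783 / 100000, 641796 / 100000⟩,
   ⟨61, 142347 / 100000, 671046 / 100000⟩,
   ⟨63, 145858 / 100000, 700595 / 100000⟩,
   ⟨65, 149319 / 100000, 730428 / 100000⟩,
   ⟨67, 152733 / 100000, 760533 / 100000⟩,
   ⟨69, 156102 / 100000, 790898 / 100000⟩,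
   ⟨71, 159426 / 100000, 821513 / 100000⟩,
   ⟨73, 162709 / 100000, 852367 / 100000⟩,
   ⟨75, 165952 / 100000, 883451 / 100000⟩,
   ⟨77, 169156 / 100000, 914755 / 100000⟩,
   ⟨79, 172322 / 100000, 946273 / 100000⟩,
   ⟨81, 175452 / 100000, 977995 / 100000⟩,
   ⟨83, 178548 / 100000, 1009914 / 100000⟩,
   ⟨85, 181610 / 100000, 1042023 / 100000⟩,
   ⟨87, 184639 / 100000, 1074316 / 100000⟩,
   ⟨89, 187637 / 100000, 1106787 / 100000⟩,
   ⟨91, 190605 / 100000, 1139429 / 100000⟩,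
   ⟨93, 193543 / 100000, 1172238 / 100000⟩,
   ⟨95, 196452 / 100000, 1205207 / 100000⟩,
   ⟨97, 199333 / 100000, 1238332 / 100000⟩,
   ⟨99, 202188 / 100000, 1271608 / 100000⟩]

theorem tabA_ok : tabA.all (orowOK 17 17 17 17 17 (11 / 2) (-22) 22) = true := by
  decide +kernel

end Vale.Agent.P224.R2.H977
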