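import Vale.Agent.P224.R2.H178.WO

/-!
The numbers of the law in odd dimension `401 ≤ m ≤ 499`.
-/

namespace Vale.Agent.P224.R2.H977

open Vale.Agent.P224.R2.H178

/-- the rows for odd `401 ≤ m ≤ 499` -/
def tabE : List ORow :=
  [⟨401, 493653 / 100000, 7038821 / 100000⟩,
   ⟨403, 495113 / 100000, 7079394 / 100000⟩,
   ⟨405, 496569 / 100000, 7119984 / 100000⟩,
   ⟨407, 498022 / 100000, 7160591 / 100000⟩,
   ⟨409, 499472 / 100000, 7201215 / 100000⟩,
   ⟨411, 500918 / 100000, 7241855 / 100000⟩,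
   ⟨413, 502361 / 100000, 7282512 / 100000⟩,
   ⟨415, 503800 / 100000, 7323186 / 100000⟩,
   ⟨417, 505236 / 100000, 7363876 / 100000⟩,
   ⟨419, 506668 / 100000, 7404582 / 100000⟩,
   ⟨421, 508097 / 100000, 7445304 / 100000⟩,
   ⟨423, 509523 / 100000, 7486043 / 100000⟩,
   ⟨425, 510945 / 100000, 7526797 / 100000⟩,
   ⟨427, 512365 / 100000, 7567567 / 100000⟩,
   ⟨429, 513781 / 100000, 7608353 / 100000⟩,
   ⟨431, 515193 / 100000, 7649154 / 100000⟩,
   ⟨433, 516603 / 100000, 7689970 / 100000⟩,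
   ⟨435, 518009 / 100000, 7730802 / 100000⟩,
   ⟨437, 519412 / 100000, 7771650 / 100000⟩,
   ⟨439, 520812 / 100000, 7812512 / 100000⟩,
   ⟨441, 522209 / 100000, 7853389 / 100000⟩,
   ⟨443, 523603 / 100000, 7894281 / 100000⟩,
   ⟨445, 524994 / 100000, 7935188 / 100000⟩,
   ⟨447, 526382 / 100000, 7976110 / 100000⟩,
   ⟨449, 527766 / 100000, 8017046 / 100000⟩,
   ⟨451, 529148 / 100000, 8057997 / 100000⟩,
   ⟨453, 530527 / 100000, 8098962 / 100000⟩,
   ⟨455, 531902 / 100000, 8139942 / 100000⟩,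
   ⟨457, 533275 / 100000, 8180935 / 100000⟩,
   ⟨459, 534645 / 100000, 8221943 / 100000⟩,
   ⟨461, 536012 / 100000, 8262965 / 100000⟩,
   ⟨463, 537376 / 100000, 8304000 / 100000⟩,
   ⟨465, 538737 / 100000, 8345050 / 100000⟩,
   ⟨467, 540095 / 100000, 8386113 / 100000⟩,
   ⟨469, 541450 / 100000, 8427190 / 100000⟩,
   ⟨471, 542803 / 100000, 8468280 / 100000⟩,
   ⟨473, 544152 / 100000, 8509384 / 100000⟩,
   ⟨475, 545499 / 100000, 8550501 / 100000⟩,
   ⟨477, 546843 / 100000, 8591632 / 100000⟩,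
   ⟨479, 548185 / 100000, 8632775 / 100000⟩,
   ⟨481, 549523 / 100000, 8673932 / 100000⟩,
   ⟨483, 550859 / 100000, 8715102 / 100000⟩,
   ⟨485, 552192 / 100000, 8756284 / 100000⟩,
   ⟨487, 553523 / 100000, 8797480 / 100000⟩,
   ⟨489, 554850 / 100000, 8838688 / 100000⟩,
   ⟨491, 556176 / 100000, 8879910 / 100000⟩,
   ⟨493, 557498 / 100000, 8921143 / 100000⟩,
   ⟨495, 558818 / 100000, 8962389 / 100000⟩,
   ⟨497, 560135 / 100000, 9003648 / 100000⟩,
   ⟨499, 561450 / 100000, 9044919 / 100000⟩]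

theorem tabE_ok : tabE.all (orowOK 17 17 17 17 17 (11 / 2) (-22) 22) = true := by
  decide +kernel

end Vale.Agent.P224.R2.H977
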