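import Vale.Agent.P224.R2.H178.WO

/-!
The numbers of the law in odd dimension `501 ≤ m ≤ 599`.
-/

namespace Vale.Agent.P224.R2.H977

open Vale.Agent.P224.R2.H178

/-- the rows for odd `501 ≤ m ≤ 599` -/
def tabF : List ORow :=
  [⟨501, 562762 / 100000, 9086203 / 100000⟩,
   ⟨503, 564071 / 100000, 9127498 / 100000⟩,
   ⟨505, 565378 / 100000, 9168806 / 100000⟩,
   ⟨507, 566683 / 100000, 9210126 / 100000⟩,
   ⟨509, 567984 / 100000, 9251458 / 100000⟩,
   ⟨511, 569284 / 100000, 9292801 / 100000⟩,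
   ⟨513, 570581 / 100000, 9334157 / 100000⟩,
   ⟨515, 571875 / 100000, 9375525 / 100000⟩,
   ⟨517, 573167 / 100000, 9416904 / 100000⟩,
   ⟨519, 574456 / 100000, 9458295 / 100000⟩,
   ⟨521, 575743 / 100000, 9499697 / 100000⟩,
   ⟨523, 577028 / 100000, 9541111 / 100000⟩,
   ⟨525, 578310 / 100000, 9582536 / 100000⟩,
   ⟨527, 579590 / 100000, 9623973 / 100000⟩,
   ⟨529, 580867 / 100000, 9665421 / 100000⟩,
   ⟨531, 582142 / 100000, 9706880 / 100000⟩,
   ⟨533, 583415 / 100000, 9748351 / 100000⟩,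
   ⟨535, 584685 / 100000, 9789832 / 100000⟩,
   ⟨537, 585953 / 100000, 9831325 / 100000⟩,
   ⟨539, 587219 / 100000, 9872829 / 100000⟩,
   ⟨541, 588482 / 100000, 9914343 / 100000⟩,
   ⟨543, 589743 / 100000, 9955869 / 100000⟩,
   ⟨545, 591002 / 100000, 9997405 / 100000⟩,
   ⟨547, 592258 / 100000, 10038952 / 100000⟩,
   ⟨549, 593513 / 100000, 10080510 / 100000⟩,
   ⟨551, 594765 / 100000, 10122078 / 100000⟩,
   ⟨553, 596014 / 100000, 10163657 / 100000⟩,
   ⟨555, 597262 / 100000, 10205246 / 100000⟩,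
   ⟨557, 598507 / 100000, 10246846 / 100000⟩,
   ⟨559, 599750 / 100000, 10288456 / 100000⟩,
   ⟨561, 600991 / 100000, 10330076 / 100000⟩,
   ⟨563, 602230 / 100000, 10371707 / 100000⟩,
   ⟨565, 603467 / 100000, 10413348 / 100000⟩,
   ⟨567, 604701 / 100000, 10454999 / 100000⟩,
   ⟨569, 605933 / 100000, 10496660 / 100000⟩,
   ⟨571, 607163 / 100000, 10538332 / 100000⟩,
   ⟨573, 608391 / 100000, 10580013 / 100000⟩,
   ⟨575, 609617 / 100000, 10621704 / 100000⟩,
   ⟨577, 610841 / 100000, 10663405 / 100000⟩,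
   ⟨579, 612063 / 100000, 10705116 / 100000⟩,
   ⟨581, 613283 / 100000, 10746837 / 100000⟩,
   ⟨583, 614500 / 100000, 10788567 / 100000⟩,
   ⟨585, 615716 / 100000, 10830307 / 100000⟩,
   ⟨587, 616929 / 100000, 10872057 / 100000⟩,
   ⟨589, 618141 / 100000, 10913816 / 100000⟩,
   ⟨591, 619350 / 100000, 10955585 / 100000⟩,
   ⟨593, 620558 / 100000, 10997364 / 100000⟩,
   ⟨595, 621763 / 100000, 11039151 / 100000⟩,
   ⟨597, 622966 / 100000, 11080948 / 100000⟩,
   ⟨599, 624168 / 100000, 11122755 / 100000⟩]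

theorem tabF_ok : tabF.all (orowOK 17 17 17 17 17 (11 / 2) (-22) 22) = true := by
  decide +kernel

end Vale.Agent.P224.R2.H977
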