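import Vale.Agent.P224.R2.H178.WO

/-!
The numbers of the law in odd dimension `601 ≤ m ≤ 699`.
-/

namespace Vale.Agent.P224.R2.H977

open Vale.Agent.P224.R2.H178

/-- the rows for odd `601 ≤ m ≤ 699` -/
def tabG : List ORow :=
  [⟨601, 625367 / 100000, 11164571 / 100000⟩,
   ⟨603, 626565 / 100000, 11206396 / 100000⟩,
   ⟨605, 627760 / 100000, 11248230 / 100000⟩,
   ⟨607, 628954 / 100000, 11290073 / 100000⟩,
   ⟨609, 630146 / 100000, 11331926 / 100000⟩,
   ⟨611, 631335 / 100000, 11373787 / 100000⟩,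
   ⟨613, 632523 / 100000, 11415657 / 100000⟩,
   ⟨615, 633709 / 100000, 11457537 / 100000⟩,
   ⟨617, 634893 / 100000, 11499425 / 100000⟩,
   ⟨619, 636075 / 100000, 11541322 / 100000⟩,
   ⟨621, 637255 / 100000, 11583228 / 100000⟩,
   ⟨623, 638434 / 100000, 11625143 / 100000⟩,
   ⟨625, 639610 / 100000, 11667067 / 100000⟩,
   ⟨627, 640785 / 100000, 11708999 / 100000⟩,
   ⟨629, 641958 / 100000, 11750940 / 100000⟩,
   ⟨631, 643129 / 100000, 11792889 / 100000⟩,
   ⟨633, 644298 / 100000, 11834847 / 100000⟩,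
   ⟨635, 645465 / 100000, 11876814 / 100000⟩,
   ⟨637, 646630 / 100000, 11918789 / 100000⟩,
   ⟨639, 647794 / 100000, 11960772 / 100000⟩,
   ⟨641, 648956 / 100000, 12002764 / 100000⟩,
   ⟨643, 650116 / 100000, 12044764 / 100000⟩,
   ⟨645, 651274 / 100000, 12086773 / 100000⟩,
   ⟨647, 652431 / 100000, 12128790 / 100000⟩,
   ⟨649, 653586 / 100000, 12170815 / 100000⟩,
   ⟨651, 654739 / 100000, 12212848 / 100000⟩,
   ⟨653, 655890 / 100000, 12254890 / 100000⟩,
   ⟨655, 657040 / 100000, 12296939 / 100000⟩,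
   ⟨657, 658187 / 100000, 12338997 / 100000⟩,
   ⟨659, 659334 / 100000, 12381063 / 100000⟩,
   ⟨661, 660478 / 100000, 12423136 / 100000⟩,
   ⟨663, 661621 / 100000, 12465218 / 100000⟩,
   ⟨665, 662762 / 100000, 12507308 / 100000⟩,
   ⟨667, 663901 / 100000, 12549405 / 100000⟩,
   ⟨669, 665038 / 100000, 12591510 / 100000⟩,
   ⟨671, 666174 / 100000, 12633624 / 100000⟩,
   ⟨673, 667309 / 100000, 12675745 / 100000⟩,
   ⟨675, 668441 / 100000, 12717873 / 100000⟩,
   ⟨677, 669572 / 100000, 12760010 / 100000⟩,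
   ⟨679, 670701 / 100000, 12802154 / 100000⟩,
   ⟨681, 671829 / 100000, 12844306 / 100000⟩,
   ⟨683, 672955 / 100000, 12886465 / 100000⟩,
   ⟨685, 674079 / 100000, 12928632 / 100000⟩,
   ⟨687, 675202 / 100000, 12970807 / 100000⟩,
   ⟨689, 676323 / 100000, 13012989 / 100000⟩,
   ⟨691, 677443 / 100000, 13055178 / 100000⟩,
   ⟨693, 678561 / 100000, 13097375 / 100000⟩,
   ⟨695, 679677 / 100000, 13139580 / 100000⟩,
   ⟨697, 680792 / 100000, 13181792 / 100000⟩,
   ⟨699, 681905 / 100000, 13224011 / 100000⟩]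

theorem tabG_ok : tabG.all (orowOK 17 17 17 17 17 (11 / 2) (-22) 22) = true := by
  decide +kernel

end Vale.Agent.P224.R2.H977
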