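import Vale.Agent.P224.R2.H178.WO

/-!
The numbers of the law in odd dimension `701 ≤ m ≤ 799`.
-/

namespace Vale.Agent.P224.R2.H977

open Vale.Agent.P224.R2.H178

/-- the rows for odd `701 ≤ m ≤ 799` -/
def tabH : List ORow :=
  [⟨701, 683017 / 100000, 13266237 / 100000⟩,
   ⟨703, 684127 / 100000, 13308471 / 100000⟩,
   ⟨705, 685235 / 100000, 13350712 / 100000⟩,
   ⟨707, 686342 / 100000, 13392960 / 100000⟩,
   ⟨709, 687447 / 100000, 13435216 / 100000⟩,
   ⟨711, 688551 / 100000, 13477478 / 100000⟩,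
   ⟨713, 689653 / 100000, 13519748 / 100000⟩,
   ⟨715, 690754 / 100000, 13562025 / 100000⟩,
   ⟨717, 691853 / 100000, 13604308 / 100000⟩,
   ⟨719, 692951 / 100000, 13646599 / 100000⟩,
   ⟨721, 694047 / 100000, 13688897 / 100000⟩,
   ⟨723, 695142 / 100000, 13731202 / 100000⟩,
   ⟨725, 696235 / 100000, 13773514 / 100000⟩,
   ⟨727, 697327 / 100000, 13815832 / 100000⟩,
   ⟨729, 698417 / 100000, 13858158 / 100000⟩,
   ⟨731, 699506 / 100000, 13900490 / 100000⟩,
   ⟨733, 700593 / 100000, 13942830 / 100000⟩,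
   ⟨735, 701679 / 100000, 13985176 / 100000⟩,
   ⟨737, 702764 / 100000, 14027529 / 100000⟩,
   ⟨739, 703847 / 100000, 14069888 / 100000⟩,
   ⟨741, 704928 / 100000, 14112254 / 100000⟩,
   ⟨743, 706008 / 100000, 14154627 / 100000⟩,
   ⟨745, 707087 / 100000, 14197007 / 100000⟩,
   ⟨747, 708164 / 100000, 14239393 / 100000⟩,
   ⟨749, 709240 / 100000, 14281786 / 100000⟩,
   ⟨751, 710314 / 100000, 14324186 / 100000⟩,
   ⟨753, 711387 / 100000, 14366592 / 100000⟩,
   ⟨755, 712458 / 100000, 14409004 / 100000⟩,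
   ⟨757, 713528 / 100000, 14451423 / 100000⟩,
   ⟨759, 714597 / 100000, 14493849 / 100000⟩,
   ⟨761, 715664 / 100000, 14536281 / 100000⟩,
   ⟨763, 716730 / 100000, 14578719 / 100000⟩,
   ⟨765, 717795 / 100000, 14621164 / 100000⟩,
   ⟨767, 718858 / 100000, 14663615 / 100000⟩,
   ⟨769, 719920 / 100000, 14706072 / 100000⟩,
   ⟨771, 720980 / 100000, 14748536 / 100000⟩,
   ⟨773, 722039 / 100000, 14791006 / 100000⟩,
   ⟨775, 723097 / 100000, 14833482 / 100000⟩,
   ⟨777, 724153 / 100000, 14875965 / 100000⟩,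
   ⟨779, 725208 / 100000, 14918453 / 100000⟩,
   ⟨781, 726262 / 100000, 14960948 / 100000⟩,
   ⟨783, 727314 / 100000, 15003450 / 100000⟩,
   ⟨785, 728365 / 100000, 15045957 / 100000⟩,
   ⟨787, 729415 / 100000, 15088470 / 100000⟩,
   ⟨789, 730463 / 100000, 15130990 / 100000⟩,
   ⟨791, 731511 / 100000, 15173515 / 100000⟩,
   ⟨793, 732556 / 100000, 15216047 / 100000⟩,
   ⟨795, 733601 / 100000, 15258584 / 100000⟩,
   ⟨797, 734644 / 100000, 15301128 / 100000⟩,
   ⟨799, 735686 / 100000, 15343677 / 100000⟩]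

theorem tabH_ok : tabH.all (orowOK 17 17 17 17 17 (11 / 2) (-22) 22) = true := by
  decide +kernel

end Vale.Agent.P224.R2.H977
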