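import Vale.Agent.P224.R2.H178.WO

/-!
The numbers of the law in odd dimension `801 ≤ m ≤ 849`.
-/

namespace Vale.Agent.P224.R2.H977

open Vale.Agent.P224.R2.H178

/-- the rows for odd `801 ≤ m ≤ 849` -/
def tabI : List ORow :=
  [⟨801, 736726 / 100000, 15386233 / 100000⟩,
   ⟨803, 737765 / 100000, 15428794 / 100000⟩,
   ⟨805, 738803 / 100000, 15471362 / 100000⟩,
   ⟨807, 739840 / 100000, 15513935 / 100000⟩,
   ⟨809, 740876 / 100000, 15556514 / 100000⟩,
   ⟨811, 741910 / 100000, 15599099 / 100000⟩,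
   ⟨813, 742943 / 100000, 15641690 / 100000⟩,
   ⟨815, 743974 / 100000, 15684286 / 100000⟩,
   ⟨817, 745005 / 100000, 15726889 / 100000⟩,
   ⟨819, 746034 / 100000, 15769497 / 100000⟩,
   ⟨821, 747062 / 100000, 15812111 / 100000⟩,
   ⟨823, 748089 / 100000, 15854730 / 100000⟩,
   ⟨825, 749114 / 100000, 15897355 / 100000⟩,
   ⟨827, 750138 / 100000, 15939986 / 100000⟩,
   ⟨829, 751161 / 100000, 15982623 / 100000⟩,
   ⟨831, 752183 / 100000, 16025265 / 100000⟩,
   ⟨833, 753203 / 100000, 16067913 / 100000⟩,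
   ⟨835, 754223 / 100000, 16110566 / 100000⟩,
   ⟨837, 755241 / 100000, 16153225 / 100000⟩,
   ⟨839, 756258 / 100000, 16195890 / 100000⟩,
   ⟨841, 757274 / 100000, 16238559 / 100000⟩,
   ⟨843, 758288 / 100000, 16281235 / 100000⟩,
   ⟨845, 759301 / 100000, 16323916 / 100000⟩,
   ⟨847, 760314 / 100000, 16366602 / 100000⟩,
   ⟨849, 761324 / 100000, 16409294 / 100000⟩]

theorem tabI_ok : tabI.all (orowOK 17 17 17 17 17 (11 / 2) (-22) 22) = true := by
  decide +kernel

end Vale.Agent.P224.R2.H977
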