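import Vale.Agent.P224.R2.H977.TabA
import Vale.Agent.P224.R2.H977.TabB
import Vale.Agent.P224.R2.H977.TabC
import Vale.Agent.P224.R2.H977.TabD
import Vale.Agent.P224.R2.H977.TabE
import Vale.Agent.P224.R2.H977.TabF
import Vale.Agent.P224.R2.H977.TabG
import Vale.Agent.P224.R2.H977.TabH
import Vale.Agent.P224.R2.H977.TabI

/-!
The numbers of the law in odd dimension `37 ≤ m ≤ 849`: membership in the tables.
-/

namespace Vale.Agent.P224.R2.H977

open Vale.Agent.P224.R2.H178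

/-- the dimensions of a table are the odd numbers from `a` on -/
def fromOdd (a : ℕ) : List ORow → Bool
  | [] => true
  | r :: l => decide (r.m = a) && fromOdd (a + 2) l

lemma exists_row : ∀ (l : List ORow) (a : ℕ), fromOdd a l = true → ∀ m : ℕ, a ≤ m →
    m < a + 2 * l.length → m % 2 = a % 2 → ∃ r ∈ l, r.m = m := by
  intro l
  induction l with
  | nil =>
    intro a _ m h1 h2 _
    simp only [List.length_nil, Nat.mul_zero, Nat.add_zero] at h2
    omega
  | cons r l ih =>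
    intro a h m h1 h2 h3
    simp only [fromOdd, Bool.and_eq_true, decide_eq_true_eq] at h
    rw [List.length_cons] at h2
    rcases eq_or_ne m a with e | e
    · exact ⟨r, List.mem_cons_self, h.1.trans e.symm⟩
    · obtain ⟨s, hs, hm⟩ := ih (a + 2) h.2 m (by omega) (by omega) (by omega)
      exact ⟨s, List.mem_cons_of_mem _ hs, hm⟩

theorem memA {m : ℕ} (h1 : 37 ≤ m) (h2 : m ≤ 99) (h3 : m % 2 = 1) :
    ∃ r ∈ tabA, r.m = m :=
  exists_row tabA 37 (by decide +kernel) m h1 (lt_of_le_of_lt h2 (by decide +kernel)) h3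

theorem memB {m : ℕ} (h1 : 101 ≤ m) (h2 : m ≤ 199) (h3 : m % 2 = 1) :
    ∃ r ∈ tabB, r.m = m :=
  exists_row tabB 101 (by decide +kernel) m h1 (lt_of_le_of_lt h2 (by decide +kernel)) h3

theorem memC {m : ℕ} (h1 : 201 ≤ m) (h2 : m ≤ 299) (h3 : m % 2 = 1) :
    ∃ r ∈ tabC, r.m = m :=
  exists_row tabC 201 (by decide +kernel) m h1 (lt_of_le_of_lt h2 (by decide +kernel)) h3

theorem memD {m : ℕ} (h1 : 301 ≤ m) (h2 : m ≤ 399) (h3 : m % 2 = 1) :
    ∃ r ∈ tabD, r.m = m :=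
  exists_row tabD 301 (by decide +kernel) m h1 (lt_of_le_of_lt h2 (by decide +kernel)) h3

theorem memE {m : ℕ} (h1 : 401 ≤ m) (h2 : m ≤ 499) (h3 : m % 2 = 1) :
    ∃ r ∈ tabE, r.m = m :=
  exists_row tabE 401 (by decide +kernel) m h1 (lt_of_le_of_lt h2 (by decide +kernel)) h3

theorem memF {m : ℕ} (h1 : 501 ≤ m) (h2 : m ≤ 599) (h3 : m % 2 = 1) :
    ∃ r ∈ tabF, r.m = m :=
  exists_row tabF 501 (by decide +kernel) m h1 (lt_of_le_of_lt h2 (by decide +kernel)) h3

theorem memG {m : ℕ} (h1 : 601 ≤ m) (h2 : m ≤ 699) (h3 : m % 2 = 1) :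
    ∃ r ∈ tabG, r.m = m :=
  exists_row tabG 601 (by decide +kernel) m h1 (lt_of_le_of_lt h2 (by decide +kernel)) h3

theorem memH {m : ℕ} (h1 : 701 ≤ m) (h2 : m ≤ 799) (h3 : m % 2 = 1) :
    ∃ r ∈ tabH, r.m = m :=
  exists_row tabH 701 (by decide +kernel) m h1 (lt_of_le_of_lt h2 (by decide +kernel)) h3

theorem memI {m : ℕ} (h1 : 801 ≤ m) (h2 : m ≤ 849) (h3 : m % 2 = 1) :
    ∃ r ∈ tabI, r.m = m :=
  exists_row tabI 801 (by decide +kernel) m h1 (lt_of_le_of_lt h2 (by decide +kernel)) h3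

/-- a Boolean check of all rows of a table gives the check of the row of the dimension -/
theorem row_of {l : List ORow} {m : ℕ} (h : ∃ r ∈ l, r.m = m) {f : ORow → Bool}
    (hf : l.all f = true) : ∃ r ∈ l, r.m = m ∧ f r = true := by
  obtain ⟨r, hr, e⟩ := h
  exact ⟨r, hr, e, List.all_eq_true.1 hf r hr⟩

end Vale.Agent.P224.R2.H977
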